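import Mathlib

/-!
# P205: smooth metrics on the torus `ℝ²/ℤ²` and smooth isometric immersions into `ℝ⁴`
-/

open scoped ContDiff

namespace Vale.Agent.P205

/-- A smooth Riemannian metric `E dx² + 2 H dx dy + G dy²` on the torus `ℝ²/ℤ²`, given by doubly
periodic smooth coefficients on `ℝ²`. -/
structure TorusMetric where
  /-- coefficient of `dx²` -/
  E : ℝ × ℝ → ℝ
  /-- coefficient of `2 dx dy` -/
  H : ℝ × ℝ → ℝ
  /-- coefficient of `dy²` -/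
  G : ℝ × ℝ → ℝ
  smooth_E : ContDiff ℝ ∞ E
  smooth_H : ContDiff ℝ ∞ H
  smooth_G : ContDiff ℝ ∞ G
  periodic_E : ∀ x y : ℝ, E (x + 1, y) = E (x, y) ∧ E (x, y + 1) = E (x, y)
  periodic_H : ∀ x y : ℝ, H (x + 1, y) = H (x, y) ∧ H (x, y + 1) = H (x, y)
  periodic_G : ∀ x y : ℝ, G (x + 1, y) = G (x, y) ∧ G (x, y + 1) = G (x, y)
  pos : ∀ p v : ℝ × ℝ, v ≠ 0 → 0 < E p * v.1 ^ 2 + 2 * H p * (v.1 * v.2) + G p * v.2 ^ 2

/-- The metric as a bilinear form on the tangent space at `p`. -/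
def TorusMetric.form (g : TorusMetric) (p v w : ℝ × ℝ) : ℝ :=
  g.E p * (v.1 * w.1) + g.H p * (v.1 * w.2 + v.2 * w.1) + g.G p * (v.2 * w.2)

/-- The metric is invariant under the circle action `(x, y) ↦ (x, y + t)` on `ℝ²/ℤ²`. -/
def TorusMetric.CircleInvariant (g : TorusMetric) : Prop :=
  ∀ t x y : ℝ, g.E (x, y + t) = g.E (x, y) ∧ g.H (x, y + t) = g.H (x, y) ∧
    g.G (x, y + t) = g.G (x, y)

/-- The torus `(ℝ²/ℤ², g)` has a smooth isometric immersion into Euclidean `ℝ⁴`: a smooth map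
`F` on `ℝ²` that is `ℤ²`-periodic, hence a smooth map on `ℝ²/ℤ²`, with
`⟨dF_p v, dF_p w⟩ = g_p(v, w)` for all `p, v, w`. -/
def TorusMetric.HasSmoothIsometricImmersion (g : TorusMetric) : Prop :=
  ∃ F : ℝ × ℝ → EuclideanSpace ℝ (Fin 4), ContDiff ℝ ∞ F ∧
    (∀ x y : ℝ, F (x + 1, y) = F (x, y) ∧ F (x, y + 1) = F (x, y)) ∧
    ∀ p v w : ℝ × ℝ, inner ℝ (fderiv ℝ F p v) (fderiv ℝ F p w) = g.form p v w

end Vale.Agent.P205
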