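import Vale.Agent.P205.Geo
import Vale.Agent.P205.Defs

/-!
# P205: circle-invariant metrics on the torus
-/

open Set Filter Topology MeasureTheory intervalIntegral

open scoped ContDiff

namespace Vale.Agent.P205

namespace Geo

noncomputable section

variable {a b α β : ℝ → ℝ} {c : ℝ}

lemma sur_per_x (ha : ∀ x, a (x + 1) = a x) (hb : ∀ x, b (x + 1) = b x) (p q : ℤ)
    (hα : ∀ x, α (x + 1) = α x + p * (2 * Real.pi))
    (hβ : ∀ x, β (x + 1) = β x + q * (2 * Real.pi)) (x y : ℝ) :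
    sur a b α β c (x + 1, y) = sur a b α β c (x, y) := by
  unfold sur
  simp only [ha, hb, hα, hβ]
  rw [show α x + p * (2 * Real.pi) + c * y = α x + c * y + p * (2 * Real.pi) by ring,
    show β x + q * (2 * Real.pi) + c * y = β x + c * y + q * (2 * Real.pi) by ring,
    Real.cos_add_int_mul_two_pi, Real.sin_add_int_mul_two_pi, Real.cos_add_int_mul_two_pi,
    Real.sin_add_int_mul_two_pi]

lemma sur_per_y (N : ℕ) (hc : c = N * (2 * Real.pi)) (x y : ℝ) :
    sur a b α β c (x, y + 1) = sur a b α β c (x, y) := by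
  unfold sur
  simp only
  rw [show α x + c * (y + 1) = α x + c * y + N * (2 * Real.pi) by rw [hc]; ring,
    show β x + c * (y + 1) = β x + c * y + N * (2 * Real.pi) by rw [hc]; ring,
    Real.cos_add_nat_mul_two_pi, Real.sin_add_nat_mul_two_pi, Real.cos_add_nat_mul_two_pi,
    Real.sin_add_nat_mul_two_pi]

lemma alg1 {k l : ℝ} (hk : k ≠ 0) (hl : l ≠ 0) (hkl : l ^ 2 + k ^ 2 = 1) (r r' f X w : ℝ) :
    (r' * k - r * (l * f)) ^ 2 + (r' * l + r * (k * f)) ^ 2 + (r * k) ^ 2 * (X + w * (l / k)) ^ 2 +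
      (r * l) ^ 2 * (X - w * (k / l)) ^ 2 = r' ^ 2 + r ^ 2 * f ^ 2 + r ^ 2 * (X ^ 2 + w ^ 2) := by
  have h1 : (r * k) ^ 2 * (X + w * (l / k)) ^ 2 = r ^ 2 * (k * X + w * l) ^ 2 := by
    field_simp
  have h2 : (r * l) ^ 2 * (X - w * (k / l)) ^ 2 = r ^ 2 * (l * X - w * k) ^ 2 := by
    field_simp
  rw [h1, h2]
  linear_combination (r' ^ 2 + r ^ 2 * f ^ 2 + r ^ 2 * (X ^ 2 + w ^ 2)) * hkl

lemma alg2 {k l : ℝ} (hk : k ≠ 0) (hl : l ≠ 0) (hkl : l ^ 2 + k ^ 2 = 1) (r X w : ℝ) :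
    (r * k) ^ 2 * (X + w * (l / k)) + (r * l) ^ 2 * (X - w * (k / l)) = r ^ 2 * X := by
  have h1 : (r * k) ^ 2 * (X + w * (l / k)) = r ^ 2 * (k ^ 2 * X + w * l * k) := by
    field_simp
  have h2 : (r * l) ^ 2 * (X - w * (k / l)) = r ^ 2 * (l ^ 2 * X - w * k * l) := by
    field_simp
  rw [h1, h2]
  linear_combination r ^ 2 * X * hkl

lemma prim_contDiff {u : ℝ → ℝ} (hu : ContDiff ℝ ∞ u) :
    ContDiff ℝ ∞ (fun x => ∫ y in (0 : ℝ)..x, u y) ∧
      ∀ x, deriv (fun x => ∫ y in (0 : ℝ)..x, u y) x = u x := by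
  have h1 : ∀ x, HasDerivAt (fun x => ∫ y in (0 : ℝ)..x, u y) (u x) x := fun x =>
    (hu.continuous.integral_hasStrictDerivAt 0 x).hasDerivAt
  have h2 : deriv (fun x => ∫ y in (0 : ℝ)..x, u y) = u := funext fun x => (h1 x).deriv
  refine ⟨?_, fun x => (h1 x).deriv⟩
  rw [contDiff_infty_iff_deriv]
  refine ⟨fun x => (h1 x).differentiableAt, ?_⟩
  rw [h2]
  exact hu

lemma prim_periodic {u : ℝ → ℝ} (hu : Continuous u) (hp : ∀ x, u (x + 1) = u x) (x : ℝ) :
    ∫ y in (0 : ℝ)..(x + 1), u y = (∫ y in (0 : ℝ)..x, u y) + ∫ y in (0 : ℝ)..1, u y := by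
  have h1 : Function.Periodic u 1 := hp
  have h2 := h1.intervalIntegral_add_eq x 0
  rw [zero_add] at h2
  rw [← h2, intervalIntegral.integral_add_adjacent_intervals (hu.intervalIntegrable _ _)
    (hu.intervalIntegrable _ _)]

end

end Geo

open Phase Geo

theorem final_aux {E H G : ℝ → ℝ} (hE : ContDiff ℝ ∞ E) (hH : ContDiff ℝ ∞ H)
    (hG : ContDiff ℝ ∞ G) (hEp : ∀ x, E (x + 1) = E x) (hHp : ∀ x, H (x + 1) = H x)
    (hGp : ∀ x, G (x + 1) = G x) (hG0 : ∀ x, 0 < G x) (hD0 : ∀ x, 0 < E x * G x - H x ^ 2) :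
    ∃ F : ℝ × ℝ → EuclideanSpace ℝ (Fin 4), ContDiff ℝ ∞ F ∧
    (∀ x y : ℝ, F (x + 1, y) = F (x, y) ∧ F (x, y + 1) = F (x, y)) ∧
    ∀ p v w : ℝ × ℝ, inner ℝ (fderiv ℝ F p v) (fderiv ℝ F p w) =
      E p.1 * (v.1 * w.1) + H p.1 * (v.1 * w.2 + v.2 * w.1) + G p.1 * (v.2 * w.2) := by
  have hpi := Real.pi_pos
  set ρ : ℝ → ℝ := fun x => 2 * Real.pi * √(E x * G x - H x ^ 2) / G x with hρ
  set σ : ℝ → ℝ := fun x => deriv G x / (2 * G x) with hσ
  set h : ℝ → ℝ := fun x => 2 * Real.pi * H x / G x with hh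
  have hG' : ContDiff ℝ ∞ (deriv G) := (contDiff_infty_iff_deriv.1 hG).2
  have hρs : ContDiff ℝ ∞ ρ :=
    ContDiff.div (contDiff_const.mul (ContDiff.sqrt ((hE.mul hG).sub (hH.pow 2))
      fun x => (hD0 x).ne')) hG fun x => (hG0 x).ne'
  have hσs : ContDiff ℝ ∞ σ :=
    hG'.div (contDiff_const.mul hG) fun x => (mul_pos two_pos (hG0 x)).ne'
  have hhs : ContDiff ℝ ∞ h := ContDiff.div (contDiff_const.mul hH) hG fun x => (hG0 x).ne'
  have hρ0 : ∀ x, 0 < ρ x := fun x =>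
    div_pos (mul_pos (by positivity) (Real.sqrt_pos.2 (hD0 x))) (hG0 x)
  have hρp : ∀ x, ρ (x + 1) = ρ x := fun x => by simp only [hρ, hEp, hHp, hGp]
  have hG'p : ∀ x, deriv G (x + 1) = deriv G x := fun x => by
    rw [← deriv_comp_add_const]
    congr 1
    exact funext hGp
  have hσp : ∀ x, σ (x + 1) = σ x := fun x => by simp only [hσ, hGp, hG'p]
  have hhp : ∀ x, h (x + 1) = h x := fun x => by simp only [hh, hHp, hGp]
  obtain ⟨N, s, t, P, Q, hN, hs, ht, hpos, hA, hB⟩ :=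
    Phase.main hρs.continuous hρ0 hσs.continuous hρp hσp hhs.continuous
  have hN0 : (0 : ℝ) < N := by exact_mod_cast hN
  set φ : ℝ → ℝ := fun x => ph (s, t) x with hφ
  set w : ℝ → ℝ := fun x => W N ρ σ (s, t) x with hw
  have hφs : ContDiff ℝ ∞ φ := by
    have : φ = fun x => S s + T t * Real.sin (2 * Real.pi * x) := rfl
    rw [this]
    exact contDiff_const.add (contDiff_const.mul (contDiff_const.mul contDiff_id).sin)
  have hφd : ∀ x, HasDerivAt φ (T t * (2 * Real.pi * Real.cos (2 * Real.pi * x))) x := by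
    intro x
    have h1 : HasDerivAt (fun x : ℝ => 2 * Real.pi * x) (2 * Real.pi) x := by
      simpa using (hasDerivAt_id x).const_mul (2 * Real.pi)
    have h2 := (h1.sin.const_mul (T t)).const_add (S s)
    rw [show T t * (2 * Real.pi * Real.cos (2 * Real.pi * x)) =
      T t * (Real.cos (2 * Real.pi * x) * (2 * Real.pi)) by ring]
    exact h2
  have hws : ContDiff ℝ ∞ w := by
    have h1 : ContDiff ℝ ∞ fun x : ℝ => Real.cos (2 * Real.pi * x) :=
      (contDiff_const.mul contDiff_id).cos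
    have h2 : ContDiff ℝ ∞ fun x => (N : ℝ) ^ 2 * ρ x ^ 2 - σ x ^ 2 -
        (T t * (2 * Real.pi * Real.cos (2 * Real.pi * x))) ^ 2 :=
      ((contDiff_const.mul (hρs.pow 2)).sub (hσs.pow 2)).sub
        ((contDiff_const.mul (contDiff_const.mul h1)).pow 2)
    exact h2.sqrt fun x => (hpos x).ne'
  have hw2 : ∀ x, w x ^ 2 = (N : ℝ) ^ 2 * ρ x ^ 2 - σ x ^ 2 -
        (T t * (2 * Real.pi * Real.cos (2 * Real.pi * x))) ^ 2 := fun x => Real.sq_sqrt (hpos x).le
  have hk : ∀ x, Real.cos (φ x) ≠ 0 := fun x => (cos_pos (s, t) x).ne'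
  have hl : ∀ x, Real.sin (φ x) ≠ 0 := fun x => (sin_pos (s, t) x).ne'
  have hcos : ∀ x : ℝ, Real.cos (2 * Real.pi * (x + 1)) = Real.cos (2 * Real.pi * x) := fun x => by
    rw [show 2 * Real.pi * (x + 1) = 2 * Real.pi * x + 2 * Real.pi by ring,
      Real.cos_add_two_pi]
  have hsin : ∀ x : ℝ, Real.sin (2 * Real.pi * (x + 1)) = Real.sin (2 * Real.pi * x) := fun x => by
    rw [show 2 * Real.pi * (x + 1) = 2 * Real.pi * x + 2 * Real.pi by ring,
      Real.sin_add_two_pi]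
  have hφp : ∀ x, φ (x + 1) = φ x := fun x => by
    change S s + T t * Real.sin (2 * Real.pi * (x + 1)) = S s + T t * Real.sin (2 * Real.pi * x)
    rw [hsin]
  have hwp : ∀ x, w (x + 1) = w x := fun x => by
    simp only [hw, W, hρp, hσp, hcos]
  set A' : ℝ → ℝ := fun x => N * h x + w x * (Real.sin (φ x) / Real.cos (φ x)) with hA'
  set B' : ℝ → ℝ := fun x => N * h x - w x * (Real.cos (φ x) / Real.sin (φ x)) with hB'
  have hAs : ContDiff ℝ ∞ A' :=
    (contDiff_const.mul hhs).add (hws.mul (hφs.sin.div hφs.cos hk))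
  have hBs : ContDiff ℝ ∞ B' :=
    (contDiff_const.mul hhs).sub (hws.mul (hφs.cos.div hφs.sin hl))
  have hAp : ∀ x, A' (x + 1) = A' x := fun x => by simp only [hA', hhp, hwp, hφp]
  have hBp : ∀ x, B' (x + 1) = B' x := fun x => by simp only [hB', hhp, hwp, hφp]
  set r : ℝ → ℝ := fun x => √(G x) / (2 * Real.pi * N) with hr
  have hrs : ContDiff ℝ ∞ r :=
    (hG.sqrt fun x => (hG0 x).ne').div contDiff_const fun _ => by positivity
  have hrd : ∀ x, HasDerivAt r (deriv G x / (2 * √(G x)) / (2 * Real.pi * N)) x := fun x =>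
    ((hG.differentiable (by simp) x).hasDerivAt.sqrt (hG0 x).ne').div_const _
  have hrp : ∀ x, r (x + 1) = r x := fun x => by simp only [hr, hGp]
  have has : ContDiff ℝ ∞ fun x => r x * Real.cos (φ x) := hrs.mul hφs.cos
  have hbs : ContDiff ℝ ∞ fun x => r x * Real.sin (φ x) := hrs.mul hφs.sin
  obtain ⟨hαs, hαd⟩ := prim_contDiff hAs
  obtain ⟨hβs, hβd⟩ := prim_contDiff hBs
  refine ⟨sur (fun x => r x * Real.cos (φ x)) (fun x => r x * Real.sin (φ x))
    (fun x => ∫ y in (0 : ℝ)..x, A' y) (fun x => ∫ y in (0 : ℝ)..x, B' y) (N * (2 * Real.pi)),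
    sur_contDiff has hbs hαs hβs, fun x y => ⟨?_, sur_per_y N rfl x y⟩, fun p v u => ?_⟩
  · refine sur_per_x (fun x => by simp only [hrp, hφp]) (fun x => by simp only [hrp, hφp]) P Q
      (fun x => ?_) (fun x => ?_) x y
    · rw [prim_periodic hAs.continuous hAp]
      have h1 : ∫ y in (0 : ℝ)..1, A' y = 2 * Real.pi * P := hA
      rw [h1]
      ring
    · rw [prim_periodic hBs.continuous hBp]
      have h1 : ∫ y in (0 : ℝ)..1, B' y = 2 * Real.pi * Q := hB
      rw [h1]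
      ring
  · rw [sur_inner has hbs hαs hβs, hαd, hβd]
    have d1 : deriv (fun x => r x * Real.cos (φ x)) p.1 =
        deriv G p.1 / (2 * √(G p.1)) / (2 * Real.pi * N) * Real.cos (φ p.1) -
          r p.1 * (Real.sin (φ p.1) * (T t * (2 * Real.pi * Real.cos (2 * Real.pi * p.1)))) := by
      have := ((hrd p.1).mul (hφd p.1).cos).deriv
      refine this.trans ?_
      ring
    have d2 : deriv (fun x => r x * Real.sin (φ x)) p.1 =
        deriv G p.1 / (2 * √(G p.1)) / (2 * Real.pi * N) * Real.sin (φ p.1) +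
          r p.1 * (Real.cos (φ p.1) * (T t * (2 * Real.pi * Real.cos (2 * Real.pi * p.1)))) := by
      have := ((hrd p.1).mul (hφd p.1).sin).deriv
      refine this.trans ?_
      ring
    have hkl := Real.sin_sq_add_cos_sq (φ p.1)
    have h1 := alg1 (hk p.1) (hl p.1) hkl (r p.1) (deriv G p.1 / (2 * √(G p.1)) / (2 * Real.pi * N))
      (T t * (2 * Real.pi * Real.cos (2 * Real.pi * p.1))) (N * h p.1) (w p.1)
    have h2 := alg2 (hk p.1) (hl p.1) hkl (r p.1) (N * h p.1) (w p.1)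
    have hsq : √(G p.1) ^ 2 = G p.1 := Real.sq_sqrt (hG0 p.1).le
    have hsD : √(E p.1 * G p.1 - H p.1 ^ 2) ^ 2 = E p.1 * G p.1 - H p.1 ^ 2 :=
      Real.sq_sqrt (hD0 p.1).le
    have hr2 : r p.1 ^ 2 = G p.1 / (2 * Real.pi * N) ^ 2 := by
      simp only [hr, div_pow, hsq]
    have hGne := (hG0 p.1).ne'
    have hNne := hN0.ne'
    have hpine := hpi.ne'
    have c1 : (deriv G p.1 / (2 * √(G p.1)) / (2 * Real.pi * N)) ^ 2 +
        r p.1 ^ 2 * (T t * (2 * Real.pi * Real.cos (2 * Real.pi * p.1))) ^ 2 +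
        r p.1 ^ 2 * ((N * h p.1) ^ 2 + w p.1 ^ 2) = E p.1 := by
      rw [hw2, hr2]
      simp only [hρ, hσ, hh, div_pow, mul_pow, hsq, hsD]
      field_simp
      ring
    have c2 : r p.1 ^ 2 * (N * h p.1) * (N * (2 * Real.pi)) = H p.1 := by
      rw [hr2]
      simp only [hh]
      field_simp
    have c3 : (N * (2 * Real.pi)) ^ 2 * r p.1 ^ 2 = G p.1 := by
      rw [hr2]
      field_simp
    rw [d1, d2, h1, c1]
    rw [h2]
    have c4 : (r p.1 * Real.cos (φ p.1)) ^ 2 + (r p.1 * Real.sin (φ p.1)) ^ 2 = r p.1 ^ 2 := by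
      linear_combination r p.1 ^ 2 * hkl
    rw [c4, c3]
    linear_combination (v.1 * u.2 + v.2 * u.1) * c2

/-- Every circle-invariant smooth metric on the torus has a smooth isometric immersion into
four-space. -/
theorem circleInvariant_immersion (g : TorusMetric) (hg : g.CircleInvariant) :
    g.HasSmoothIsometricImmersion := by
  have hinv : ∀ p : ℝ × ℝ, g.E p = g.E (p.1, 0) ∧ g.H p = g.H (p.1, 0) ∧ g.G p = g.G (p.1, 0) := by
    intro p
    have := hg p.2 p.1 0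
    rw [zero_add] at this
    exact this
  have hG0 : ∀ x, 0 < g.G (x, 0) := fun x => by
    have := g.pos (x, 0) (0, 1) (by simp)
    simpa using this
  have hD0 : ∀ x, 0 < g.E (x, 0) * g.G (x, 0) - g.H (x, 0) ^ 2 := fun x => by
    have h1 := g.pos (x, 0) (g.G (x, 0), -g.H (x, 0)) (by
      intro h
      exact (hG0 x).ne' (congrArg Prod.fst h))
    simp only at h1
    have h2 : 0 < g.G (x, 0) * (g.E (x, 0) * g.G (x, 0) - g.H (x, 0) ^ 2) := by linarith
    exact (mul_pos_iff_of_pos_left (hG0 x)).1 h2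
  have hc : ContDiff ℝ ∞ fun x : ℝ => (x, (0 : ℝ)) := contDiff_id.prodMk contDiff_const
  obtain ⟨F, h1, h2, h3⟩ := final_aux (g.smooth_E.comp hc) (g.smooth_H.comp hc)
    (g.smooth_G.comp hc) (fun x => (g.periodic_E x 0).1) (fun x => (g.periodic_H x 0).1)
    (fun x => (g.periodic_G x 0).1) hG0 hD0
  refine ⟨F, h1, h2, fun p v w => ?_⟩
  rw [h3, TorusMetric.form, (hinv p).1, (hinv p).2.1, (hinv p).2.2]
  rfl

end Vale.Agent.P205
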