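import Vale.Agent.P205.Phase

/-!
# P205: rotational surfaces in four-space
-/

open Set Filter Topology MeasureTheory intervalIntegral

open scoped ContDiff

namespace Vale.Agent.P205

namespace Geo

noncomputable section

/-- a doubly rotational surface -/
def sur (a b α β : ℝ → ℝ) (c : ℝ) (p : ℝ × ℝ) : EuclideanSpace ℝ (Fin 4) :=
  WithLp.toLp 2 ![a p.1 * Real.cos (α p.1 + c * p.2), a p.1 * Real.sin (α p.1 + c * p.2),
    b p.1 * Real.cos (β p.1 + c * p.2), b p.1 * Real.sin (β p.1 + c * p.2)]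

variable {a b α β : ℝ → ℝ} {c : ℝ}

lemma sur_contDiff (ha : ContDiff ℝ ∞ a) (hb : ContDiff ℝ ∞ b) (hα : ContDiff ℝ ∞ α)
    (hβ : ContDiff ℝ ∞ β) : ContDiff ℝ ∞ (sur a b α β c) := by
  rw [contDiff_euclidean]
  intro i
  have h1 : ContDiff ℝ ∞ fun p : ℝ × ℝ => a p.1 := ha.comp contDiff_fst
  have h2 : ContDiff ℝ ∞ fun p : ℝ × ℝ => b p.1 := hb.comp contDiff_fst
  have h3 : ContDiff ℝ ∞ fun p : ℝ × ℝ => α p.1 + c * p.2 :=
    (hα.comp contDiff_fst).add (contDiff_const.mul contDiff_snd)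
  have h4 : ContDiff ℝ ∞ fun p : ℝ × ℝ => β p.1 + c * p.2 :=
    (hβ.comp contDiff_fst).add (contDiff_const.mul contDiff_snd)
  fin_cases i
  · exact h1.mul h3.cos
  · exact h1.mul h3.sin
  · exact h2.mul h4.cos
  · exact h2.mul h4.sin

lemma der_cos (ha : Differentiable ℝ a) (hα : Differentiable ℝ α) (p v : ℝ × ℝ) :
    fderiv ℝ (fun q : ℝ × ℝ => a q.1 * Real.cos (α q.1 + c * q.2)) p v =
      deriv a p.1 * v.1 * Real.cos (α p.1 + c * p.2) -
        a p.1 * Real.sin (α p.1 + c * p.2) * (deriv α p.1 * v.1 + c * v.2) := by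
  have h1 : HasFDerivAt (fun q : ℝ × ℝ => a q.1)
      (deriv a p.1 • ContinuousLinearMap.fst ℝ ℝ ℝ) p :=
    (ha p.1).hasDerivAt.comp_hasFDerivAt p hasFDerivAt_fst
  have h2 : HasFDerivAt (fun q : ℝ × ℝ => α q.1)
      (deriv α p.1 • ContinuousLinearMap.fst ℝ ℝ ℝ) p :=
    (hα p.1).hasDerivAt.comp_hasFDerivAt p hasFDerivAt_fst
  have h3 : HasFDerivAt (fun q : ℝ × ℝ => α q.1 + c * q.2)
      (deriv α p.1 • ContinuousLinearMap.fst ℝ ℝ ℝ + c • ContinuousLinearMap.snd ℝ ℝ ℝ) p :=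
    h2.add (hasFDerivAt_snd.const_mul c)
  have h4 : fderiv ℝ (fun q : ℝ × ℝ => a q.1 * Real.cos (α q.1 + c * q.2)) p = _ :=
    (h1.mul h3.cos).fderiv
  rw [h4]
  simp
  ring

lemma der_sin (ha : Differentiable ℝ a) (hα : Differentiable ℝ α) (p v : ℝ × ℝ) :
    fderiv ℝ (fun q : ℝ × ℝ => a q.1 * Real.sin (α q.1 + c * q.2)) p v =
      deriv a p.1 * v.1 * Real.sin (α p.1 + c * p.2) +
        a p.1 * Real.cos (α p.1 + c * p.2) * (deriv α p.1 * v.1 + c * v.2) := by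
  have h1 : HasFDerivAt (fun q : ℝ × ℝ => a q.1)
      (deriv a p.1 • ContinuousLinearMap.fst ℝ ℝ ℝ) p :=
    (ha p.1).hasDerivAt.comp_hasFDerivAt p hasFDerivAt_fst
  have h2 : HasFDerivAt (fun q : ℝ × ℝ => α q.1)
      (deriv α p.1 • ContinuousLinearMap.fst ℝ ℝ ℝ) p :=
    (hα p.1).hasDerivAt.comp_hasFDerivAt p hasFDerivAt_fst
  have h3 : HasFDerivAt (fun q : ℝ × ℝ => α q.1 + c * q.2)
      (deriv α p.1 • ContinuousLinearMap.fst ℝ ℝ ℝ + c • ContinuousLinearMap.snd ℝ ℝ ℝ) p :=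
    h2.add (hasFDerivAt_snd.const_mul c)
  have h4 : fderiv ℝ (fun q : ℝ × ℝ => a q.1 * Real.sin (α q.1 + c * q.2)) p = _ :=
    (h1.mul h3.sin).fderiv
  rw [h4]
  simp
  ring

/-- the first fundamental form -/
theorem sur_inner (ha : ContDiff ℝ ∞ a) (hb : ContDiff ℝ ∞ b) (hα : ContDiff ℝ ∞ α)
    (hβ : ContDiff ℝ ∞ β) (p v w : ℝ × ℝ) :
    inner ℝ (fderiv ℝ (sur a b α β c) p v) (fderiv ℝ (sur a b α β c) p w) =
      (deriv a p.1 ^ 2 + deriv b p.1 ^ 2 + a p.1 ^ 2 * deriv α p.1 ^ 2 +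
        b p.1 ^ 2 * deriv β p.1 ^ 2) * (v.1 * w.1) +
      c * (a p.1 ^ 2 * deriv α p.1 + b p.1 ^ 2 * deriv β p.1) * (v.1 * w.2 + v.2 * w.1) +
      c ^ 2 * (a p.1 ^ 2 + b p.1 ^ 2) * (v.2 * w.2) := by
  have hd : DifferentiableAt ℝ (sur a b α β c) p :=
    (sur_contDiff ha hb hα hβ).contDiffAt.differentiableAt (by simp)
  have ha' : Differentiable ℝ a := ha.differentiable (by simp)
  have hb' : Differentiable ℝ b := hb.differentiable (by simp)
  have hα' : Differentiable ℝ α := hα.differentiable (by simp)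
  have hβ' : Differentiable ℝ β := hβ.differentiable (by simp)
  have hi : ∀ (i : Fin 4) (u : ℝ × ℝ), (fderiv ℝ (sur a b α β c) p u) i =
      fderiv ℝ (fun q => sur a b α β c q i) p u := by
    intro i u
    have hh := hasFDerivWithinAt_euclidean.1 (hd.hasFDerivAt.hasFDerivWithinAt (s := univ)) i
    have := (hh.hasFDerivAt univ_mem).fderiv
    rw [this]
    rfl
  have h0 : ∀ u, (fderiv ℝ (sur a b α β c) p u) 0 = deriv a p.1 * u.1 *
      Real.cos (α p.1 + c * p.2) - a p.1 * Real.sin (α p.1 + c * p.2) *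
        (deriv α p.1 * u.1 + c * u.2) := fun u => by rw [hi, ← der_cos ha' hα']; rfl
  have h1 : ∀ u, (fderiv ℝ (sur a b α β c) p u) 1 = deriv a p.1 * u.1 *
      Real.sin (α p.1 + c * p.2) + a p.1 * Real.cos (α p.1 + c * p.2) *
        (deriv α p.1 * u.1 + c * u.2) := fun u => by rw [hi, ← der_sin ha' hα']; rfl
  have h2 : ∀ u, (fderiv ℝ (sur a b α β c) p u) 2 = deriv b p.1 * u.1 *
      Real.cos (β p.1 + c * p.2) - b p.1 * Real.sin (β p.1 + c * p.2) *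
        (deriv β p.1 * u.1 + c * u.2) := fun u => by rw [hi, ← der_cos hb' hβ']; rfl
  have h3 : ∀ u, (fderiv ℝ (sur a b α β c) p u) 3 = deriv b p.1 * u.1 *
      Real.sin (β p.1 + c * p.2) + b p.1 * Real.cos (β p.1 + c * p.2) *
        (deriv β p.1 * u.1 + c * u.2) := fun u => by rw [hi, ← der_sin hb' hβ']; rfl
  rw [PiLp.inner_apply, Fin.sum_univ_four]
  simp only [h0, h1, h2, h3, RCLike.inner_apply, conj_trivial]
  have e1 := Real.sin_sq_add_cos_sq (α p.1 + c * p.2)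
  have e2 := Real.sin_sq_add_cos_sq (β p.1 + c * p.2)
  generalize Real.sin (α p.1 + c * p.2) = s1 at *
  generalize Real.cos (α p.1 + c * p.2) = c1 at *
  generalize Real.sin (β p.1 + c * p.2) = s2 at *
  generalize Real.cos (β p.1 + c * p.2) = c2 at *
  linear_combination (deriv a p.1 ^ 2 * v.1 * w.1 + a p.1 ^ 2 * (deriv α p.1 * v.1 + c * v.2) *
    (deriv α p.1 * w.1 + c * w.2)) * e1 + (deriv b p.1 ^ 2 * v.1 * w.1 +
    b p.1 ^ 2 * (deriv β p.1 * v.1 + c * v.2) * (deriv β p.1 * w.1 + c * w.2)) * e2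

end

end Geo

end Vale.Agent.P205
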