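import Mathlib

/-!
# P205: a two-parameter intermediate value theorem
-/

open Set Filter Topology

namespace Vale.Agent.P205

/-- nested intermediate value theorem -/
theorem nested {f g : ℝ → ℝ → ℝ} (hf : Continuous (Function.uncurry f))
    (hg : Continuous (Function.uncurry g)) {a b t1 A B : ℝ} (hab : a ≤ b) (ht : 0 ≤ t1)
    (hmono : ∀ t ∈ Icc 0 t1, StrictMonoOn (fun s => f s t) (Icc a b))
    (h1 : ∀ t ∈ Icc 0 t1, f a t < A) (h2 : ∀ t ∈ Icc 0 t1, A < f b t)
    (h3 : ∀ s ∈ Icc a b, f s 0 = A → g s 0 < B) (h4 : ∀ s ∈ Icc a b, f s t1 = A → B < g s t1) :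
    ∃ s ∈ Icc a b, ∃ t ∈ Icc 0 t1, f s t = A ∧ g s t = B := by
  have hex : ∀ t : Icc (0 : ℝ) t1, ∃ s ∈ Icc a b, f s t = A := by
    rintro ⟨t, htm⟩
    have hc : ContinuousOn (fun s => f s t) (Icc a b) :=
      (hf.comp (continuous_id.prodMk continuous_const)).continuousOn
    obtain ⟨s, hs, hfs⟩ := intermediate_value_Icc hab hc ⟨(h1 t htm).le, (h2 t htm).le⟩
    exact ⟨s, hs, hfs⟩
  choose Φ hΦ hfΦ using hex
  have hcont : Continuous Φ := by
    rw [continuous_iff_continuousAt]
    intro t0
    have ha0 : a < Φ t0 := by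
      rcases (hΦ t0).1.eq_or_lt with h | h
      · exfalso
        have := h1 t0 t0.2
        rw [h, hfΦ t0] at this
        exact lt_irrefl _ this
      · exact h
    have hb0 : Φ t0 < b := by
      rcases (hΦ t0).2.eq_or_lt with h | h
      · exfalso
        have := h2 t0 t0.2
        rw [← h, hfΦ t0] at this
        exact lt_irrefl _ this
      · exact h
    refine tendsto_order.2 ⟨fun a' ha' => ?_, fun b' hb' => ?_⟩
    · set c := max a' a with hc
      have hcl : c < Φ t0 := max_lt ha' ha0
      have hcm : c ∈ Icc a b := ⟨le_max_right _ _, (hcl.trans hb0).le⟩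
      have h5 : f c t0 < A := by
        rw [← hfΦ t0]
        exact hmono t0 t0.2 hcm (hΦ t0) hcl
      have h6 : Continuous fun t : Icc (0 : ℝ) t1 => f c t :=
        hf.comp (continuous_const.prodMk continuous_subtype_val)
      filter_upwards [h6.continuousAt.eventually_lt continuousAt_const h5] with t h7
      refine lt_of_le_of_lt (le_max_left a' a) ?_
      by_contra h8
      push Not at h8
      have h9 := (hmono t t.2).monotoneOn (hΦ t) hcm h8
      simp only [hfΦ t] at h9
      exact absurd h7 (not_lt.2 h9)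
    · set c := min b' b with hc
      have hcl : Φ t0 < c := lt_min hb' hb0
      have hcm : c ∈ Icc a b := ⟨(ha0.trans hcl).le, min_le_right _ _⟩
      have h5 : A < f c t0 := by
        rw [← hfΦ t0]
        exact hmono t0 t0.2 (hΦ t0) hcm hcl
      have h6 : Continuous fun t : Icc (0 : ℝ) t1 => f c t :=
        hf.comp (continuous_const.prodMk continuous_subtype_val)
      filter_upwards [continuousAt_const.eventually_lt h6.continuousAt h5] with t h7
      refine lt_of_lt_of_le ?_ (min_le_left b' b)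
      by_contra h8
      push Not at h8
      have h9 := (hmono t t.2).monotoneOn hcm (hΦ t) h8
      simp only [hfΦ t] at h9
      exact absurd h7 (not_lt.2 h9)
  have hG : Continuous fun t : Icc (0 : ℝ) t1 => g (Φ t) t :=
    hg.comp (hcont.prodMk continuous_subtype_val)
  have : PreconnectedSpace (Icc (0 : ℝ) t1) := Subtype.preconnectedSpace isPreconnected_Icc
  have hpre : IsPreconnected (univ : Set (Icc (0 : ℝ) t1)) :=
    isPreconnected_univ
  obtain ⟨t, -, hgt⟩ := hpre.intermediate_value (mem_univ ⟨0, le_rfl, ht⟩)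
    (mem_univ ⟨t1, ht, le_rfl⟩) hG.continuousOn
    (⟨(h3 _ (hΦ _) (hfΦ _)).le, (h4 _ (hΦ _) (hfΦ _)).le⟩ : B ∈ Icc _ _)
  exact ⟨Φ t, hΦ t, t, t.2, hfΦ t, hgt⟩

end Vale.Agent.P205
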