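import Vale.Agent.P205.Nested

/-!
# P205: choice of the phases
-/

open Set Filter Topology MeasureTheory intervalIntegral

namespace Vale.Agent.P205

namespace Phase

noncomputable section

/-- clamped shift -/
def S (s : ℝ) : ℝ := max (Real.pi / 8) (min s (3 * Real.pi / 8))

/-- clamped amplitude -/
def T (t : ℝ) : ℝ := max 0 (min t (Real.pi / 16))

/-- the angle -/
def ph (p : ℝ × ℝ) (x : ℝ) : ℝ := S p.1 + T p.2 * Real.sin (2 * Real.pi * x)

/-- tangent of the angle -/
def tn (p : ℝ × ℝ) (x : ℝ) : ℝ := Real.sin (ph p x) / Real.cos (ph p x)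

/-- cotangent of the angle -/
def ct (p : ℝ × ℝ) (x : ℝ) : ℝ := Real.cos (ph p x) / Real.sin (ph p x)

/-- the speed -/
def W (N : ℝ) (ρ σ : ℝ → ℝ) (p : ℝ × ℝ) (x : ℝ) : ℝ :=
  √(N ^ 2 * ρ x ^ 2 - σ x ^ 2 - (T p.2 * (2 * Real.pi * Real.cos (2 * Real.pi * x))) ^ 2)

lemma S_mem (s : ℝ) : Real.pi / 8 ≤ S s ∧ S s ≤ 3 * Real.pi / 8 := by
  have := Real.pi_pos
  refine ⟨le_max_left _ _, max_le (by linarith) (min_le_right _ _)⟩

lemma T_mem (t : ℝ) : 0 ≤ T t ∧ T t ≤ Real.pi / 16 := by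
  have := Real.pi_pos
  refine ⟨le_max_left _ _, max_le (by linarith) (min_le_right _ _)⟩

lemma S_eq {s : ℝ} (hs : s ∈ Icc (Real.pi / 8) (3 * Real.pi / 8)) : S s = s := by
  rw [S, min_eq_left hs.2, max_eq_right hs.1]

lemma T_eq {t : ℝ} (ht : t ∈ Icc 0 (Real.pi / 16)) : T t = t := by
  rw [T, min_eq_left ht.2, max_eq_right ht.1]

lemma Tsin (t x : ℝ) : -(Real.pi / 16) ≤ T t * Real.sin (2 * Real.pi * x) ∧
    T t * Real.sin (2 * Real.pi * x) ≤ Real.pi / 16 := by
  obtain ⟨h1, h2⟩ := T_mem t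
  have h3 := Real.sin_le_one (2 * Real.pi * x)
  have h4 := Real.neg_one_le_sin (2 * Real.pi * x)
  constructor <;> nlinarith

lemma ph_mem (p : ℝ × ℝ) (x : ℝ) : Real.pi / 16 ≤ ph p x ∧ ph p x ≤ 7 * Real.pi / 16 := by
  obtain ⟨h1, h2⟩ := S_mem p.1
  obtain ⟨h3, h4⟩ := Tsin p.2 x
  unfold ph
  constructor <;> linarith

lemma sin_pos (p : ℝ × ℝ) (x : ℝ) : 0 < Real.sin (ph p x) := by
  have h := ph_mem p x
  have := Real.pi_pos
  exact Real.sin_pos_of_pos_of_lt_pi (by linarith) (by linarith)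

lemma cos_pos (p : ℝ × ℝ) (x : ℝ) : 0 < Real.cos (ph p x) := by
  have h := ph_mem p x
  have := Real.pi_pos
  exact Real.cos_pos_of_mem_Ioo ⟨by linarith, by linarith⟩

lemma tn_eq (p : ℝ × ℝ) (x : ℝ) : tn p x = Real.tan (ph p x) := (Real.tan_eq_sin_div_cos _).symm

lemma tn_pos (p : ℝ × ℝ) (x : ℝ) : 0 < tn p x := div_pos (sin_pos p x) (cos_pos p x)

lemma ct_pos (p : ℝ × ℝ) (x : ℝ) : 0 < ct p x := div_pos (cos_pos p x) (sin_pos p x)

lemma cont_S : Continuous S := by unfold S; fun_prop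
lemma cont_T : Continuous T := by unfold T; fun_prop

lemma cont_ph : Continuous (Function.uncurry ph) := by
  unfold ph Function.uncurry
  have := cont_S
  have := cont_T
  fun_prop

lemma cont_tn : Continuous (Function.uncurry tn) := by
  have h := cont_ph
  exact (Real.continuous_sin.comp h).div (Real.continuous_cos.comp h)
    fun q => (cos_pos q.1 q.2).ne'

lemma cont_ct : Continuous (Function.uncurry ct) := by
  have h := cont_ph
  exact (Real.continuous_cos.comp h).div (Real.continuous_sin.comp h)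
    fun q => (sin_pos q.1 q.2).ne'

lemma cont_W (N : ℝ) {ρ σ : ℝ → ℝ} (hρ : Continuous ρ) (hσ : Continuous σ) :
    Continuous (Function.uncurry (W N ρ σ)) := by
  unfold W Function.uncurry
  have := cont_T
  fun_prop

lemma cont_left {f : ℝ × ℝ → ℝ → ℝ} (h : Continuous (Function.uncurry f)) (p : ℝ × ℝ) :
    Continuous (f p) := h.comp (continuous_const.prodMk continuous_id)

/-- bounds for `W` -/
lemma W_bounds {N κ C : ℝ} {ρ σ : ℝ → ℝ} (hρ : ∀ x, 0 < ρ x) (hN : 0 < N) (hκ0 : 0 < κ)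
    (hC : ∀ x, σ x ^ 2 + (Real.pi / 16 * (2 * Real.pi)) ^ 2 ≤ C * ρ x ^ 2)
    (hNC : C ≤ N ^ 2 * (1 - κ ^ 2)) (p : ℝ × ℝ) (x : ℝ) :
    N * κ * ρ x ≤ W N ρ σ p x ∧ W N ρ σ p x ≤ N * ρ x ∧
      0 < N ^ 2 * ρ x ^ 2 - σ x ^ 2 -
        (T p.2 * (2 * Real.pi * Real.cos (2 * Real.pi * x))) ^ 2 := by
  have hpi := Real.pi_pos
  have h1 : (T p.2 * (2 * Real.pi * Real.cos (2 * Real.pi * x))) ^ 2 ≤
      (Real.pi / 16 * (2 * Real.pi)) ^ 2 := by
    rw [← sq_abs]
    refine pow_le_pow_left₀ (abs_nonneg _) ?_ 2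
    rw [abs_mul, abs_mul, abs_of_nonneg (T_mem p.2).1, abs_of_pos (by positivity : 0 < 2 * Real.pi)]
    have h2 := Real.abs_cos_le_one (2 * Real.pi * x)
    have h3 := (T_mem p.2).2
    have h4 := (T_mem p.2).1
    have h5 := abs_nonneg (Real.cos (2 * Real.pi * x))
    exact mul_le_mul h3 (by nlinarith) (by positivity) (by positivity)
  have h2 := hC x
  have h3 := hρ x
  have h4 : C * ρ x ^ 2 ≤ N ^ 2 * (1 - κ ^ 2) * ρ x ^ 2 :=
    mul_le_mul_of_nonneg_right hNC (by positivity)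
  have h5 : (N * κ * ρ x) ^ 2 ≤ N ^ 2 * ρ x ^ 2 - σ x ^ 2 -
        (T p.2 * (2 * Real.pi * Real.cos (2 * Real.pi * x))) ^ 2 := by nlinarith
  refine ⟨?_, ?_, lt_of_lt_of_le (by positivity) h5⟩
  · exact Real.le_sqrt_of_sq_le h5
  · unfold W
    rw [Real.sqrt_le_left (by positivity)]
    nlinarith [sq_nonneg (σ x),
      sq_nonneg (T p.2 * (2 * Real.pi * Real.cos (2 * Real.pi * x)))]

lemma cont_tn' : Continuous fun q : (ℝ × ℝ) × ℝ => tn q.1 q.2 := cont_tn
lemma cont_ct' : Continuous fun q : (ℝ × ℝ) × ℝ => ct q.1 q.2 := cont_ct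

lemma cont_tc (c : ℝ) : Continuous fun q : ℝ × ℝ => tn (q.1, c) q.2 + ct (q.1, c) q.2 := by
  have h0 : Continuous fun q : ℝ × ℝ => (((q.1, c), q.2) : (ℝ × ℝ) × ℝ) := by fun_prop
  have h1 := cont_tn'.comp h0
  have h2 := cont_ct'.comp h0
  exact h1.add h2

/-- the gap in the Cauchy-Schwarz inequality -/
lemma gap {ρ : ℝ → ℝ} (hρc : Continuous ρ) (hρ : ∀ x, 0 < ρ x) :
    ∃ m : ℝ, 0 < m ∧ ∀ s ∈ Icc (Real.pi / 8) (3 * Real.pi / 8),
      2 * ((∫ x in (0 : ℝ)..1, ρ x) + m) ≤
        ∫ x in (0 : ℝ)..1, ρ x * (tn (s, Real.pi / 16) x + ct (s, Real.pi / 16) x) := by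
  have hpi := Real.pi_pos
  have hint : Continuous (Function.uncurry fun (s : ℝ) (x : ℝ) =>
      ρ x * (tn (s, Real.pi / 16) x + ct (s, Real.pi / 16) x)) := by
    exact (hρc.comp continuous_snd).mul (cont_tc _)
  have hM := intervalIntegral.continuous_parametric_intervalIntegral_of_continuous'
    (μ := volume) hint 0 1
  obtain ⟨s0, hs0, hmin⟩ := (isCompact_Icc (a := Real.pi / 8) (b := 3 * Real.pi / 8)).exists_isMinOn
    ⟨Real.pi / 8, le_rfl, by linarith⟩ hM.continuousOn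
  have hge : ∀ x, 2 ≤ tn (s0, Real.pi / 16) x + ct (s0, Real.pi / 16) x := by
    intro x
    have h1 := sin_pos (s0, Real.pi / 16) x
    have h2 := cos_pos (s0, Real.pi / 16) x
    unfold tn ct
    rw [div_add_div _ _ h2.ne' h1.ne', le_div_iff₀ (mul_pos h2 h1)]
    nlinarith [sq_nonneg (Real.sin (ph (s0, Real.pi / 16) x) -
      Real.cos (ph (s0, Real.pi / 16) x))]
  have hgt : ∀ x, ph (s0, Real.pi / 16) x ≠ Real.pi / 4 →
      2 < tn (s0, Real.pi / 16) x + ct (s0, Real.pi / 16) x := by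
    intro x hx
    have h1 := sin_pos (s0, Real.pi / 16) x
    have h2 := cos_pos (s0, Real.pi / 16) x
    have hne : Real.sin (ph (s0, Real.pi / 16) x) ≠ Real.cos (ph (s0, Real.pi / 16) x) := by
      intro h
      rw [← Real.sin_pi_div_two_sub] at h
      have hm := ph_mem (s0, Real.pi / 16) x
      have := Real.injOn_sin ⟨by linarith, by linarith⟩ ⟨by linarith, by linarith⟩ h
      exact hx (by linarith)
    unfold tn ct
    rw [div_add_div _ _ h2.ne' h1.ne', lt_div_iff₀ (mul_pos h2 h1)]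
    have := sq_pos_of_ne_zero (sub_ne_zero.2 hne)
    nlinarith
  have hlt : (∫ x in (0 : ℝ)..1, ρ x * 2) <
      ∫ x in (0 : ℝ)..1, ρ x * (tn (s0, Real.pi / 16) x + ct (s0, Real.pi / 16) x) := by
    refine intervalIntegral.integral_lt_integral_of_continuousOn_of_le_of_exists_lt one_pos
      (hρc.mul continuous_const).continuousOn ?_ ?_ ?_
    · exact (hρc.mul ((cont_left cont_tn _).add (cont_left cont_ct _))).continuousOn
    · intro x _
      exact mul_le_mul_of_nonneg_left (hge x) (hρ x).le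
    · by_cases h0 : ph (s0, Real.pi / 16) 0 = Real.pi / 4
      · refine ⟨1 / 4, by constructor <;> norm_num, ?_⟩
        refine mul_lt_mul_of_pos_left (hgt _ ?_) (hρ _)
        unfold ph at h0 ⊢
        simp only [mul_zero, Real.sin_zero, add_zero] at h0
        rw [show 2 * Real.pi * (1 / 4) = Real.pi / 2 by ring, Real.sin_pi_div_two,
          T_eq ⟨by positivity, le_rfl⟩, h0]
        intro h
        linarith
      · refine ⟨0, by constructor <;> norm_num, ?_⟩
        exact mul_lt_mul_of_pos_left (hgt _ h0) (hρ _)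
  rw [intervalIntegral.integral_mul_const] at hlt
  refine ⟨((∫ x in (0 : ℝ)..1, ρ x * (tn (s0, Real.pi / 16) x + ct (s0, Real.pi / 16) x)) -
    (∫ x in (0 : ℝ)..1, ρ x) * 2) / 2, by linarith, fun s hs => ?_⟩
  have := hmin hs
  simp only [mem_ofPred_eq] at this
  linarith

lemma exists_C {ρ σ : ℝ → ℝ} (hρc : Continuous ρ) (hρ : ∀ x, 0 < ρ x) (hσc : Continuous σ)
    (hρp : ∀ x, ρ (x + 1) = ρ x) (hσp : ∀ x, σ (x + 1) = σ x) :
    ∃ C : ℝ, ∀ x, σ x ^ 2 + (Real.pi / 16 * (2 * Real.pi)) ^ 2 ≤ C * ρ x ^ 2 := by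
  set q : ℝ → ℝ := fun x => (σ x ^ 2 + (Real.pi / 16 * (2 * Real.pi)) ^ 2) / ρ x ^ 2 with hq
  have hqc : Continuous q :=
    Continuous.div (by fun_prop) (by fun_prop) fun x => (pow_pos (hρ x) 2).ne'
  have hqp : Function.Periodic q 1 := fun x => by simp only [hq, hρp, hσp]
  obtain ⟨x0, -, hmax⟩ := (isCompact_Icc (a := (0 : ℝ)) (b := 1)).exists_isMaxOn
    ⟨0, le_rfl, zero_le_one⟩ hqc.continuousOn
  refine ⟨q x0, fun x => ?_⟩
  obtain ⟨y, hy, hxy⟩ := hqp.exists_mem_Ico₀ one_pos x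
  have h1 : q y ≤ q x0 := hmax ⟨hy.1, hy.2.le⟩
  rw [← hxy] at h1
  rwa [← div_le_iff₀ (pow_pos (hρ x) 2)]

lemma tn_a_lt (t x : ℝ) : tn (Real.pi / 8, t) x ≤ Real.tan (3 * Real.pi / 16) := by
  have hpi := Real.pi_pos
  rw [tn_eq]
  have h1 := Tsin t x
  have h2 : ph (Real.pi / 8, t) x ≤ 3 * Real.pi / 16 := by
    unfold ph
    rw [S_eq ⟨le_rfl, by linarith⟩]
    linarith
  have h3 := (ph_mem (Real.pi / 8, t) x).1
  exact Real.strictMonoOn_tan.monotoneOn ⟨by linarith, by linarith⟩ ⟨by linarith, by linarith⟩ h2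

lemma tn_b_gt (t x : ℝ) : Real.tan (5 * Real.pi / 16) ≤ tn (3 * Real.pi / 8, t) x := by
  have hpi := Real.pi_pos
  rw [tn_eq]
  have h1 := Tsin t x
  have h2 : 5 * Real.pi / 16 ≤ ph (3 * Real.pi / 8, t) x := by
    unfold ph
    rw [S_eq ⟨by linarith, le_rfl⟩]
    linarith
  have h3 := (ph_mem (3 * Real.pi / 8, t) x).2
  exact Real.strictMonoOn_tan.monotoneOn ⟨by linarith, by linarith⟩ ⟨by linarith, by linarith⟩ h2

lemma tan_lo : Real.tan (3 * Real.pi / 16) < 1 := by
  have hpi := Real.pi_pos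
  rw [← Real.tan_pi_div_four]
  exact Real.tan_lt_tan_of_lt_of_lt_pi_div_two (by linarith) (by linarith) (by linarith)

lemma tan_up : 1 < Real.tan (5 * Real.pi / 16) := by
  have hpi := Real.pi_pos
  rw [← Real.tan_pi_div_four]
  exact Real.tan_lt_tan_of_lt_of_lt_pi_div_two (by linarith) (by linarith) (by linarith)

/-- existence of good parameters -/
theorem main {ρ σ h : ℝ → ℝ} (hρc : Continuous ρ) (hρ : ∀ x, 0 < ρ x) (hσc : Continuous σ)
    (hρp : ∀ x, ρ (x + 1) = ρ x) (hσp : ∀ x, σ (x + 1) = σ x) (hhc : Continuous h) :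
    ∃ (N : ℕ) (s t : ℝ) (p q : ℤ), 0 < N ∧ s ∈ Icc (Real.pi / 8) (3 * Real.pi / 8) ∧
      t ∈ Icc 0 (Real.pi / 16) ∧
      (∀ x, 0 < (N : ℝ) ^ 2 * ρ x ^ 2 - σ x ^ 2 -
        (T t * (2 * Real.pi * Real.cos (2 * Real.pi * x))) ^ 2) ∧
      (∫ x in (0 : ℝ)..1, (N * h x + W N ρ σ (s, t) x * tn (s, t) x)) = 2 * Real.pi * p ∧
      (∫ x in (0 : ℝ)..1, (N * h x - W N ρ σ (s, t) x * ct (s, t) x)) = 2 * Real.pi * q := by
  have hpi := Real.pi_pos
  obtain ⟨C, hC⟩ := exists_C hρc hρ hσc hρp hσp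
  obtain ⟨m, hm, hgap⟩ := gap hρc hρ
  set R : ℝ := ∫ x in (0 : ℝ)..1, ρ x with hR
  have hR0 : 0 < R := by
    rw [hR]
    exact intervalIntegral.intervalIntegral_pos_of_pos (hρc.intervalIntegrable _ _) hρ one_pos
  -- the ratio
  obtain ⟨κ, hκ1, hκ2⟩ : ∃ κ : ℝ, max (1 / Real.tan (5 * Real.pi / 16))
      ((2 * R + m) / (2 * (R + m))) < κ ∧ κ < 1 := by
    refine exists_between (max_lt ?_ ?_)
    · rw [div_lt_one (by linarith [tan_up])]
      exact tan_up
    · rw [div_lt_one (by linarith)]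
      linarith
  have hκa : 1 < κ * Real.tan (5 * Real.pi / 16) := by
    have := (le_max_left _ _).trans_lt hκ1
    rwa [div_lt_iff₀ (by linarith [tan_up])] at this
  have hκb : 2 * R + m < κ * (2 * (R + m)) := by
    have := (le_max_right _ _).trans_lt hκ1
    rwa [div_lt_iff₀ (by linarith)] at this
  have hκ0 : 0 < κ := by
    by_contra hneg
    push Not at hneg
    have := tan_up
    nlinarith
  have hκ3 : 0 < 1 - κ ^ 2 := by nlinarith
  -- the size
  obtain ⟨N, hNbig⟩ := exists_nat_gt (max 1 (max (C / (1 - κ ^ 2))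
    (max (2 * Real.pi / (R * (κ * Real.tan (5 * Real.pi / 16) - 1)))
      (4 * Real.pi / (κ * (2 * (R + m)) - (2 * R + m))))))
  have hN1 : (1 : ℝ) < N := (le_max_left _ _).trans_lt hNbig
  have hNC : C / (1 - κ ^ 2) < N :=
    ((le_max_left _ _).trans (le_max_right _ _)).trans_lt hNbig
  have hNa : 2 * Real.pi / (R * (κ * Real.tan (5 * Real.pi / 16) - 1)) < N :=
    ((le_max_left _ _).trans ((le_max_right _ _).trans (le_max_right _ _))).trans_lt hNbig
  have hNb : 4 * Real.pi / (κ * (2 * (R + m)) - (2 * R + m)) < N :=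
    ((le_max_right _ _).trans ((le_max_right _ _).trans (le_max_right _ _))).trans_lt hNbig
  rw [div_lt_iff₀ hκ3] at hNC
  rw [div_lt_iff₀ (mul_pos hR0 (by linarith))] at hNa
  rw [div_lt_iff₀ (by linarith)] at hNb
  have hN0 : (0 : ℝ) < N := by linarith
  have hNC' : C ≤ (N : ℝ) ^ 2 * (1 - κ ^ 2) := by
    have : (N : ℝ) * (1 - κ ^ 2) ≤ N ^ 2 * (1 - κ ^ 2) := by
      refine mul_le_mul_of_nonneg_right ?_ hκ3.le
      nlinarith
    linarith
  have hWb := fun p x => W_bounds hρ hN0 hκ0 hC hNC' p x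
  -- the targets
  set hb : ℝ := ∫ x in (0 : ℝ)..1, (N : ℝ) * h x with hhb
  set P : ℤ := ⌈(N * R + hb) / (2 * Real.pi)⌉ with hP
  set Q : ℤ := ⌈(N * (R + m) - hb) / (2 * Real.pi)⌉ with hQ
  set A : ℝ := 2 * Real.pi * P - hb with hA
  set B : ℝ := 2 * Real.pi * Q + hb with hB
  have h2pi : 0 < 2 * Real.pi := by linarith
  have hA1 : N * R ≤ A := by
    have := Int.le_ceil ((N * R + hb) / (2 * Real.pi))
    rw [div_le_iff₀ h2pi] at this
    rw [hA]; linarith
  have hA2 : A ≤ N * R + 2 * Real.pi := by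
    have := (Int.ceil_lt_add_one ((N * R + hb) / (2 * Real.pi))).le
    have h3 := mul_le_mul_of_nonneg_left this h2pi.le
    have h4 : 2 * Real.pi * ((N * R + hb) / (2 * Real.pi) + 1) = N * R + hb + 2 * Real.pi := by
      field_simp
    rw [hA]; linarith
  have hB1 : N * (R + m) ≤ B := by
    have := Int.le_ceil ((N * (R + m) - hb) / (2 * Real.pi))
    rw [div_le_iff₀ h2pi] at this
    rw [hB]; linarith
  have hB2 : B ≤ N * (R + m) + 2 * Real.pi := by
    have := (Int.ceil_lt_add_one ((N * (R + m) - hb) / (2 * Real.pi))).le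
    have h3 := mul_le_mul_of_nonneg_left this h2pi.le
    have h4 : 2 * Real.pi * ((N * (R + m) - hb) / (2 * Real.pi) + 1) =
        N * (R + m) - hb + 2 * Real.pi := by
      field_simp
    rw [hB]; linarith
  -- the functions
  set f : ℝ → ℝ → ℝ := fun s t => ∫ x in (0 : ℝ)..1, W N ρ σ (s, t) x * tn (s, t) x with hf
  set g : ℝ → ℝ → ℝ := fun s t => ∫ x in (0 : ℝ)..1, W N ρ σ (s, t) x * ct (s, t) x with hg
  have hWc : Continuous fun q : (ℝ × ℝ) × ℝ => W N ρ σ q.1 q.2 := cont_W N hρc hσc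
  have hfc : Continuous (Function.uncurry f) := by
    have h1 : Continuous (Function.uncurry fun (p : ℝ × ℝ) (x : ℝ) => W N ρ σ p x * tn p x) :=
      hWc.mul cont_tn'
    exact intervalIntegral.continuous_parametric_intervalIntegral_of_continuous'
      (μ := volume) h1 0 1
  have hgc : Continuous (Function.uncurry g) := by
    have h1 : Continuous (Function.uncurry fun (p : ℝ × ℝ) (x : ℝ) => W N ρ σ p x * ct p x) :=
      hWc.mul cont_ct'
    exact intervalIntegral.continuous_parametric_intervalIntegral_of_continuous'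
      (μ := volume) h1 0 1
  have hWx : ∀ p, Continuous (W N ρ σ p) := fun p => cont_left (cont_W N hρc hσc) p
  have htx : ∀ p, Continuous (tn p) := fun p => cont_left cont_tn p
  have hcx : ∀ p, Continuous (ct p) := fun p => cont_left cont_ct p
  have hWpos : ∀ p x, 0 < W N ρ σ p x := fun p x =>
    lt_of_lt_of_le (mul_pos (mul_pos hN0 hκ0) (hρ x)) (hWb p x).1
  have hI1 : ∀ p, IntervalIntegrable (fun x => W N ρ σ p x * tn p x) volume 0 1 :=
    fun p => ((hWx p).mul (htx p)).intervalIntegrable _ _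
  have hI2 : ∀ p, IntervalIntegrable (fun x => W N ρ σ p x * ct p x) volume 0 1 :=
    fun p => ((hWx p).mul (hcx p)).intervalIntegrable _ _
  have hI3 : IntervalIntegrable (fun x => (N : ℝ) * h x) volume 0 1 :=
    (continuous_const.mul hhc).intervalIntegrable _ _
  have hmono : ∀ t ∈ Icc 0 (Real.pi / 16), StrictMonoOn (fun s => f s t)
      (Icc (Real.pi / 8) (3 * Real.pi / 8)) := by
    intro t ht s hs s' hs' hss
    have hlt : ∀ x, W N ρ σ (s, t) x * tn (s, t) x < W N ρ σ (s', t) x * tn (s', t) x := by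
      intro x
      have h1 : W N ρ σ (s', t) x = W N ρ σ (s, t) x := rfl
      rw [h1]
      refine mul_lt_mul_of_pos_left ?_ (hWpos _ x)
      rw [tn_eq, tn_eq]
      have h2 := ph_mem (s, t) x
      have h3 := ph_mem (s', t) x
      refine Real.tan_lt_tan_of_lt_of_lt_pi_div_two (by linarith) (by linarith) ?_
      unfold ph
      rw [S_eq hs, S_eq hs']
      linarith
    exact intervalIntegral.integral_lt_integral_of_continuousOn_of_le_of_exists_lt one_pos
      ((hWx _).mul (htx _)).continuousOn ((hWx _).mul (htx _)).continuousOn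
      (fun x _ => (hlt x).le) ⟨0, ⟨le_rfl, zero_le_one⟩, hlt 0⟩
  have hint : ∀ c : ℝ, ∫ x in (0 : ℝ)..1, c * ρ x = c * R := fun c =>
    intervalIntegral.integral_const_mul _ _
  have h1 : ∀ t ∈ Icc 0 (Real.pi / 16), f (Real.pi / 8) t < A := by
    intro t ht
    have h2 : f (Real.pi / 8) t ≤
        ∫ x in (0 : ℝ)..1, (N * Real.tan (3 * Real.pi / 16)) * ρ x := by
      refine intervalIntegral.integral_mono_on zero_le_one
        (((hWx _).mul (htx _)).intervalIntegrable _ _)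
        ((continuous_const.mul hρc).intervalIntegrable _ _) fun x _ => ?_
      have h3 := mul_le_mul (hWb (Real.pi / 8, t) x).2.1 (tn_a_lt t x) (tn_pos _ _).le
        (by have := hρ x; positivity)
      linarith
    rw [hint] at h2
    have h4 : N * Real.tan (3 * Real.pi / 16) * R < N * R := by
      have := mul_lt_mul_of_pos_left tan_lo (mul_pos hN0 hR0)
      linarith
    linarith
  have h2 : ∀ t ∈ Icc 0 (Real.pi / 16), A < f (3 * Real.pi / 8) t := by
    intro t ht
    have h2 : ∫ x in (0 : ℝ)..1, (N * κ * Real.tan (5 * Real.pi / 16)) * ρ x ≤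
        f (3 * Real.pi / 8) t := by
      refine intervalIntegral.integral_mono_on zero_le_one
        ((continuous_const.mul hρc).intervalIntegrable _ _)
        (((hWx _).mul (htx _)).intervalIntegrable _ _) fun x _ => ?_
      have h3 := mul_le_mul (hWb (3 * Real.pi / 8, t) x).1 (tn_b_gt t x)
        (by linarith [tan_up]) (hWpos _ _).le
      linarith
    rw [hint] at h2
    nlinarith
  have h3 : ∀ s ∈ Icc (Real.pi / 8) (3 * Real.pi / 8), f s 0 = A → g s 0 < B := by
    intro s hs hfs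
    have hph : ∀ x, ph (s, 0) x = s := by
      intro x
      unfold ph
      rw [S_eq hs, T_eq ⟨le_rfl, by positivity⟩]
      ring
    have htn : ∀ x, tn (s, 0) x = Real.tan s := fun x => by rw [tn_eq, hph]
    have hct : ∀ x, ct (s, 0) x = (Real.tan s)⁻¹ := fun x => by
      rw [Real.tan_eq_sin_div_cos, inv_div]; unfold ct; rw [hph]
    set I : ℝ := ∫ x in (0 : ℝ)..1, W N ρ σ (s, 0) x with hI
    have hf0 : f s 0 = I * Real.tan s := by
      simp only [hf, htn]
      rw [intervalIntegral.integral_mul_const]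
    have hg0 : g s 0 = I * (Real.tan s)⁻¹ := by
      simp only [hg, hct]
      rw [intervalIntegral.integral_mul_const]
    have hIR : I ≤ N * R := by
      rw [← hint]
      exact intervalIntegral.integral_mono_on zero_le_one ((hWx _).intervalIntegrable _ _)
        ((continuous_const.mul hρc).intervalIntegrable _ _) fun x _ => (hWb _ x).2.1
    have hI0 : 0 < I :=
      intervalIntegral.intervalIntegral_pos_of_pos ((hWx _).intervalIntegrable _ _)
        (fun x => hWpos _ x) one_pos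
    have htan : 1 ≤ Real.tan s := by
      by_contra hneg
      push Not at hneg
      have : I * Real.tan s < I * 1 := mul_lt_mul_of_pos_left hneg hI0
      linarith
    have : I * (Real.tan s)⁻¹ ≤ I * 1 :=
      mul_le_mul_of_nonneg_left (inv_le_one_of_one_le₀ htan) hI0.le
    have hNm : N * R < N * (R + m) := mul_lt_mul_of_pos_left (by linarith) hN0
    linarith
  have h4 : ∀ s ∈ Icc (Real.pi / 8) (3 * Real.pi / 8), f s (Real.pi / 16) = A →
      B < g s (Real.pi / 16) := by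
    intro s hs hfs
    have hsum : ∫ x in (0 : ℝ)..1, (N * κ) *
        (ρ x * (tn (s, Real.pi / 16) x + ct (s, Real.pi / 16) x)) ≤
        f s (Real.pi / 16) + g s (Real.pi / 16) := by
      rw [hf, hg]
      simp only
      rw [← intervalIntegral.integral_add (hI1 _) (hI2 _)]
      refine intervalIntegral.integral_mono_on zero_le_one
        ((continuous_const.mul (hρc.mul ((htx _).add (hcx _)))).intervalIntegrable _ _)
        ((((hWx _).mul (htx _)).add ((hWx _).mul (hcx _))).intervalIntegrable _ _) fun x _ => ?_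
      have h5 := mul_le_mul_of_nonneg_right (hWb (s, Real.pi / 16) x).1
        (add_pos (tn_pos (s, Real.pi / 16) x) (ct_pos (s, Real.pi / 16) x)).le
      linarith
    rw [intervalIntegral.integral_const_mul] at hsum
    have h6 := mul_le_mul_of_nonneg_left (hgap s hs) (mul_pos hN0 hκ0).le
    nlinarith
  obtain ⟨s, hs, t, ht, hA', hB'⟩ := nested hfc hgc (by linarith) (by positivity) hmono h1 h2 h3 h4
  refine ⟨N, s, t, P, -Q, by exact_mod_cast hN0, hs, ht, fun x => (hWb (s, t) x).2.2, ?_, ?_⟩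
  · rw [intervalIntegral.integral_add hI3 (hI1 _)]
    have : hb + f s t = 2 * Real.pi * P := by rw [hA', hA]; ring
    exact this
  · rw [intervalIntegral.integral_sub hI3 (hI2 _)]
    have : hb - g s t = 2 * Real.pi * ((-Q : ℤ) : ℝ) := by
      rw [hB', hB]; push_cast; ring
    exact this

end

end Phase

end Vale.Agent.P205
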